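import Vale.Agent.P254.SP.IfaceA

/-!
P254, line (SP_0), EQUALITY CASE (helper72): interface.

`A1 U s a` = first chaos coefficient `A_a = E ∂_a G = E z_a G` of the field `G = GG U s`;
`StmtStab` = stability output of the bookkeeping (instead of `StmtFin`);
`StmtLim` = limit theorem in Gauss space: if the non-linear part of `G_k` tends to `0` and
`∑ A_a² → 1`, then in some orthonormal frame the maps tend to `t(⟨O_i,z⟩) - 1`.
-/

open MeasureTheory Filter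
open scoped Topology

namespace Vale.Agent.P254.SP.E72

open Vale.Agent.P227.M Vale.Agent.P254.S Vale.Agent.P254.SP

/-- first chaos coefficients of `G` -/
noncomputable def A1 {n : ℕ} (U : E n → Matrix (Fin n) (Fin n) ℝ) (s : E n → Fin n → ℝ)
    (a : Fin n) : Matrix (Fin n) (Fin n) ℝ := fun i j => Ex Q (fun z => z a * GG U s z i j)

/-- `E |G - ∑ z_a A_a|²` -/
noncomputable def nlin {n : ℕ} (U : E n → Matrix (Fin n) (Fin n) ℝ) (s : E n → Fin n → ℝ) : ℝ :=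
  Ex Q (fun z => ∑ i, ∑ j, (GG U s z i j - ∑ a, z a * A1 U s a i j) ^ 2)

/-- `|∑ A_a² - 1|²` -/
noncomputable def dfK {n : ℕ} (U : E n → Matrix (Fin n) (Fin n) ℝ) (s : E n → Fin n → ℝ) : ℝ :=
  ∑ i, ∑ j, ((∑ a, A1 U s a * A1 U s a) i j - (1 : Matrix (Fin n) (Fin n) ℝ) i j) ^ 2

/-- **SP-STAB** the functional inequality with a positive remainder -/
def StmtStab (P : F1) : Prop := ∀ n : ℕ, ∃ c0 : ℝ, 0 < c0 ∧
  ∀ (φ V : E n → ℝ) (c C a b M κ : ℝ), Reg V c C →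
  BP φ V a b M κ → ∀ (U : E n → Matrix (Fin n) (Fin n) ℝ) (s : E n → Fin n → ℝ), Fr P φ U s →
  (∀ i j, Ex Q (fun z => GG U s z i j) = 0) →
    2 * (n : ℝ) + Real.log (covV V).det + c0 * (nlin U s + min 1 (dfK U s)) ≤ 2 * entV V

/-- **SP-LIM** the limit theorem in Gauss space -/
def StmtLim (P : F1) : Prop := ∀ (n : ℕ) (φ V : ℕ → E n → ℝ) (a b M κ : ℕ → ℝ)
  (U : ℕ → E n → Matrix (Fin n) (Fin n) ℝ) (s : ℕ → E n → Fin n → ℝ),
  (∀ k, BP (φ k) (V k) (a k) (b k) (M k) (κ k)) → (∀ k, Fr P (φ k) (U k) (s k)) →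
  Tendsto (fun k => nlin (U k) (s k)) atTop (𝓝 0) →
  Tendsto (fun k => dfK (U k) (s k)) atTop (𝓝 0) →
  ∃ (O : Matrix (Fin n) (Fin n) ℝ) (ψ : ℕ → ℕ), O * O.transpose = 1 ∧ StrictMono ψ ∧
    ∀ i, Tendsto (fun k => Ex Q (fun z => ((∑ j, O i j * pd j (φ (ψ k)) z)
      - Ex Q (fun z => ∑ j, O i j * pd j (φ (ψ k)) z) - (P.t (∑ j, O i j * z j) - 1)) ^ 2))
      atTop (𝓝 0)

end Vale.Agent.P254.SP.E72
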