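import Mathlib

/-! P254, SP line, equality case (helper72): Hilbert-Schmidt estimates for the functional calculus. -/

open Matrix

namespace Vale.Agent.P254.SP.E72

variable {n : ℕ}


/-- squared Hilbert-Schmidt norm -/
def nsq (X : Matrix (Fin n) (Fin n) ℝ) : ℝ := ∑ i, ∑ j, X i j ^ 2

lemma nsq_nonneg (X : Matrix (Fin n) (Fin n) ℝ) : 0 ≤ nsq X :=
  Finset.sum_nonneg fun _ _ => Finset.sum_nonneg fun _ _ => sq_nonneg _

lemma nsq_trace (X : Matrix (Fin n) (Fin n) ℝ) : nsq X = (Xᵀ * X).trace := by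
  unfold nsq Matrix.trace
  simp only [diag_apply, mul_apply, transpose_apply]
  rw [Finset.sum_comm]
  exact Finset.sum_congr rfl fun _ _ => Finset.sum_congr rfl fun _ _ => by ring

lemma nsq_mul_left {U : Matrix (Fin n) (Fin n) ℝ} (hU : U * Uᵀ = 1) (X : Matrix (Fin n) (Fin n) ℝ) : nsq (Uᵀ * X) = nsq X := by
  rw [nsq_trace, nsq_trace, transpose_mul, transpose_transpose]
  congr 1
  calc Xᵀ * U * (Uᵀ * X) = Xᵀ * (U * Uᵀ) * X := by simp only [Matrix.mul_assoc]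
    _ = Xᵀ * X := by rw [hU, Matrix.mul_one]

lemma nsq_transpose (X : Matrix (Fin n) (Fin n) ℝ) : nsq Xᵀ = nsq X := by
  unfold nsq
  rw [Finset.sum_comm]
  rfl

lemma nsq_mul_right {W : Matrix (Fin n) (Fin n) ℝ} (hW : W * Wᵀ = 1) (X : Matrix (Fin n) (Fin n) ℝ) : nsq (X * W) = nsq X := by
  rw [← nsq_transpose, transpose_mul, nsq_mul_left hW, nsq_transpose]

lemma sq_le_nsq (X : Matrix (Fin n) (Fin n) ℝ) (i j : Fin n) : X i j ^ 2 ≤ nsq X := by
  have h1 : X i j ^ 2 ≤ ∑ j, X i j ^ 2 :=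
    Finset.single_le_sum (f := fun j => X i j ^ 2) (fun _ _ => sq_nonneg _) (Finset.mem_univ j)
  have h2 : ∑ j, X i j ^ 2 ≤ ∑ i, ∑ j, X i j ^ 2 :=
    Finset.single_le_sum (f := fun i => ∑ j, X i j ^ 2)
      (fun _ _ => Finset.sum_nonneg fun _ _ => sq_nonneg _) (Finset.mem_univ i)
  exact h1.trans h2

lemma abs_le_of_nsq {X : Matrix (Fin n) (Fin n) ℝ} {B : ℝ} (hB : 0 ≤ B) (h : nsq X ≤ B ^ 2) (i j : Fin n) :
    |X i j| ≤ B :=
  abs_le_of_sq_le_sq ((sq_le_nsq X i j).trans h) hB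

lemma frame_diff {U W : Matrix (Fin n) (Fin n) ℝ} (hU : U * Uᵀ = 1) (hW : W * Wᵀ = 1) (a b : Fin n → ℝ) :
    nsq (U * diagonal a * Uᵀ - W * diagonal b * Wᵀ) =
      ∑ i, ∑ j, (Uᵀ * W) i j ^ 2 * (a i - b j) ^ 2 := by
  have hU' : Uᵀ * U = 1 := mul_eq_one_comm.1 hU
  have hW' : Wᵀ * W = 1 := mul_eq_one_comm.1 hW
  rw [← nsq_mul_left hU, ← nsq_mul_right hW]
  have e : Uᵀ * (U * diagonal a * Uᵀ - W * diagonal b * Wᵀ) * W =
      diagonal a * (Uᵀ * W) - (Uᵀ * W) * diagonal b := by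
    rw [Matrix.mul_sub, Matrix.sub_mul]
    congr 1
    · calc Uᵀ * (U * diagonal a * Uᵀ) * W = (Uᵀ * U) * diagonal a * (Uᵀ * W) := by
            simp only [Matrix.mul_assoc]
        _ = _ := by rw [hU', Matrix.one_mul]
    · calc Uᵀ * (W * diagonal b * Wᵀ) * W = (Uᵀ * W) * diagonal b * (Wᵀ * W) := by
            simp only [Matrix.mul_assoc]
        _ = _ := by rw [hW', Matrix.mul_one]
  rw [e]
  unfold nsq
  refine Finset.sum_congr rfl fun i _ => Finset.sum_congr rfl fun j _ => ?_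
  rw [Matrix.sub_apply, diagonal_mul, mul_diagonal]
  ring

/-- the functional calculus of a 1-Lipschitz function is 1-Lipschitz in Hilbert-Schmidt norm -/
theorem hs_lip {U W : Matrix (Fin n) (Fin n) ℝ} (hU : U * Uᵀ = 1) (hW : W * Wᵀ = 1) (a b : Fin n → ℝ) {f : ℝ → ℝ}
    (hf : ∀ x y, |f x - f y| ≤ |x - y|) :
    nsq (U * diagonal (fun k => f (a k)) * Uᵀ - W * diagonal (fun k => f (b k)) * Wᵀ) ≤
      nsq (U * diagonal a * Uᵀ - W * diagonal b * Wᵀ) := by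
  rw [frame_diff hU hW, frame_diff hU hW]
  refine Finset.sum_le_sum fun i _ => Finset.sum_le_sum fun j _ => ?_
  exact mul_le_mul_of_nonneg_left (sq_le_sq.2 (hf _ _)) (sq_nonneg _)

lemma nsq_frame {U : Matrix (Fin n) (Fin n) ℝ} (hU : U * Uᵀ = 1) (a : Fin n → ℝ) :
    nsq (U * diagonal a * Uᵀ) = ∑ k, a k ^ 2 := by
  have h := frame_diff hU (W := 1) (by simp) a (fun _ => 0)
  have e0 : (diagonal (fun _ : Fin n => (0 : ℝ))) = 0 := by simp
  rw [e0] at h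
  simp only [Matrix.mul_zero, Matrix.zero_mul, sub_zero, Matrix.mul_one] at h
  rw [h]
  have hU' : Uᵀ * U = 1 := mul_eq_one_comm.1 hU
  refine Finset.sum_congr rfl fun i _ => ?_
  rw [← Finset.sum_mul]
  have h1 := congrFun (congrFun hU' i) i
  rw [mul_apply, one_apply_eq] at h1
  have h2 : ∑ j, Uᵀ i j ^ 2 = 1 := by
    rw [← h1]
    exact Finset.sum_congr rfl fun j _ => by simp [sq]
  rw [h2, one_mul]

/-- Taylor expansion of the functional calculus at `0` -/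
theorem hs_taylor {U : Matrix (Fin n) (Fin n) ℝ} (hU : U * Uᵀ = 1) (g : Fin n → ℝ) {f : ℝ → ℝ} {c0 c1 c2 C : ℝ}
    (hf : ∀ x, |f x - c0 - c1 * x - c2 * x ^ 2| ≤ C * |x| ^ 3) :
    nsq (U * diagonal (fun k => f (g k)) * Uᵀ - (c0 • (1 : Matrix (Fin n) (Fin n) ℝ) + c1 • (U * diagonal g * Uᵀ) +
        c2 • ((U * diagonal g * Uᵀ) * (U * diagonal g * Uᵀ)))) ≤
      C ^ 2 * nsq (U * diagonal g * Uᵀ) ^ 3 := by
  have hU' : Uᵀ * U = 1 := mul_eq_one_comm.1 hU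
  have e2 : (U * diagonal g * Uᵀ) * (U * diagonal g * Uᵀ) =
      U * diagonal (fun k => g k * g k) * Uᵀ := by
    calc (U * diagonal g * Uᵀ) * (U * diagonal g * Uᵀ)
        = U * (diagonal g * (Uᵀ * U) * diagonal g) * Uᵀ := by simp only [Matrix.mul_assoc]
      _ = _ := by rw [hU', Matrix.mul_one, diagonal_mul_diagonal]
  have e : U * diagonal (fun k => f (g k)) * Uᵀ - (c0 • (1 : Matrix (Fin n) (Fin n) ℝ) + c1 • (U * diagonal g * Uᵀ) +
        c2 • ((U * diagonal g * Uᵀ) * (U * diagonal g * Uᵀ))) =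
      U * diagonal (fun k => f (g k) - c0 - c1 * g k - c2 * g k ^ 2) * Uᵀ := by
    rw [e2]
    have h0 : (c0 • (1 : Matrix (Fin n) (Fin n) ℝ)) = U * (c0 • (1 : Matrix (Fin n) (Fin n) ℝ)) * Uᵀ := by
      rw [Matrix.mul_smul, Matrix.mul_one, Matrix.smul_mul, hU]
    have h1 : c1 • (U * diagonal g * Uᵀ) = U * (c1 • diagonal g) * Uᵀ := by
      rw [Matrix.mul_smul, Matrix.smul_mul]
    have h2 : c2 • (U * diagonal (fun k => g k * g k) * Uᵀ) =
        U * (c2 • diagonal (fun k => g k * g k)) * Uᵀ := by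
      rw [Matrix.mul_smul, Matrix.smul_mul]
    conv_lhs => rw [h0, h1, h2]
    rw [← Matrix.add_mul, ← Matrix.add_mul, ← Matrix.mul_add, ← Matrix.mul_add, ← Matrix.sub_mul,
      ← Matrix.mul_sub]
    congr 2
    ext i j
    by_cases hij : i = j
    · subst hij
      simp
      ring
    · simp [hij]
  rw [e, nsq_frame hU, nsq_frame hU]
  have h1 : ∀ k, (f (g k) - c0 - c1 * g k - c2 * g k ^ 2) ^ 2 ≤ C ^ 2 * (g k ^ 2) ^ 3 := by
    intro k
    have := hf (g k)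
    have h2 : (f (g k) - c0 - c1 * g k - c2 * g k ^ 2) ^ 2 ≤ (C * |g k| ^ 3) ^ 2 := by
      rw [← sq_abs]
      exact pow_le_pow_left₀ (abs_nonneg _) this 2
    refine h2.trans (le_of_eq ?_)
    rw [mul_pow, ← pow_mul, ← sq_abs (g k), ← pow_mul]
  refine (Finset.sum_le_sum fun k _ => h1 k).trans ?_
  rw [← Finset.mul_sum]
  refine mul_le_mul_of_nonneg_left ?_ (sq_nonneg C)
  have h3 : ∀ k, (g k ^ 2) ^ 3 ≤ g k ^ 2 * (∑ l, g l ^ 2) ^ 2 := by
    intro k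
    have h4 : g k ^ 2 ≤ ∑ l, g l ^ 2 :=
      Finset.single_le_sum (f := fun l => g l ^ 2) (fun _ _ => sq_nonneg _) (Finset.mem_univ k)
    calc (g k ^ 2) ^ 3 = g k ^ 2 * (g k ^ 2) ^ 2 := by ring
      _ ≤ _ := mul_le_mul_of_nonneg_left (pow_le_pow_left₀ (sq_nonneg _) h4 2) (sq_nonneg _)
  refine (Finset.sum_le_sum fun k _ => h3 k).trans (le_of_eq ?_)
  rw [← Finset.sum_mul]
  ring

end Vale.Agent.P254.SP.E72
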