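import Vale.Agent.P254.SP.H72.Iface
import Vale.Agent.P254.SP.H649.Gap
import Vale.Agent.P254.SP.H127.StmtMeas

/-!
P254, line (SP_0), equality case (helper72): `StmtStab` from the column certificate with remainder.
-/

open MeasureTheory Filter Matrix
open scoped Topology

namespace Vale.Agent.P254.SP.E72

open Vale.Agent.P227.M Vale.Agent.P254.S Vale.Agent.P254.S130 Vale.Agent.P254.SP
open Vale.Agent.P254.SP649

variable {n : ℕ} {P : F1} {φ V : E n → ℝ} {a b M κ : ℝ} {U : E n → Matrix (Fin n) (Fin n) ℝ}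
  {s : E n → Fin n → ℝ}

/-- the two definitions of the first chaos coefficients agree -/
lemma A1_eq (h : BP φ V a b M κ) (hF : Fr P φ U s) (c : Fin n) : A1 U s c = AA U s c := by
  ext i j
  obtain ⟨K, hK⟩ := bl_lip (SP127.mbl_GG h hF i j)
  have h1 := (LG.of_lipschitz hK).ibp c
  show Ex Q (fun z => z c * GG U s z i j) = Ex Q (fun z => pdM c (GG U s) z i j)
  rw [Ex_eq, Ex_eq]
  exact h1

lemma AA_symm (c : Fin n) : (AA U s c).IsSymm := by
  ext i j
  show AA U s c j i = AA U s c i j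
  unfold AA
  congr 1
  funext z
  exact congrFun (congrFun (SP127.pdM_GG_symm U s c z) i) j

/-- frobenius norm squared as a sum over an orthonormal basis -/
lemma sum_mulVec_sq (B : Matrix (Fin n) (Fin n) ℝ) {e : Fin n → Fin n → ℝ}
    (he : ∀ p p', ∑ i, e p i * e p' i = if p = p' then 1 else 0) :
    ∑ p, ∑ i, (B.mulVec (e p)) i ^ 2 = ∑ i, ∑ j, B i j ^ 2 := by
  have h1 : (Matrix.of e) * (Matrix.of e)ᵀ = 1 := by
    ext p p'
    simp only [Matrix.mul_apply, Matrix.of_apply, Matrix.transpose_apply, he, Matrix.one_apply]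
  have h2 : (Matrix.of e)ᵀ * (Matrix.of e) = 1 := mul_eq_one_comm.1 h1
  have h3 : ∀ j k, ∑ p, e p j * e p k = if j = k then 1 else 0 := by
    intro j k
    have := congrFun (congrFun h2 j) k
    simpa [Matrix.mul_apply, Matrix.one_apply] using this
  rw [Finset.sum_comm]
  refine Finset.sum_congr rfl fun i _ => ?_
  have h4 : ∀ p, (B.mulVec (e p)) i ^ 2 = ∑ j, ∑ k, B i j * B i k * (e p j * e p k) := by
    intro p
    simp only [Matrix.mulVec, dotProduct]
    rw [sq, Finset.sum_mul_sum]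
    refine Finset.sum_congr rfl fun j _ => Finset.sum_congr rfl fun k _ => by ring
  simp only [h4]
  rw [Finset.sum_comm]
  refine Finset.sum_congr rfl fun j _ => ?_
  rw [Finset.sum_comm]
  have h5 : ∀ k, ∑ p, B i j * B i k * (e p j * e p k) = if j = k then B i j * B i k else 0 := by
    intro k
    rw [← Finset.mul_sum, h3]
    split_ifs <;> simp
  simp only [h5, Finset.sum_ite_eq, Finset.mem_univ, if_true]
  ring

lemma nlin_cols (h : BP φ V a b M κ) (hF : Fr P φ U s) {e : Fin n → Fin n → ℝ}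
    (he : ∀ p p', ∑ i, e p i * e p' i = if p = p' then 1 else 0) :
    nlin U s = ∑ p, Ex Q (fun z => ∑ i, col U (FF U s) (e p) z i ^ 2) := by
  have h1 : ∀ p, Ex Q (fun z => ∑ i, col U (FF U s) (e p) z i ^ 2)
      = ∫ z, ∑ i, fv U s (e p) i z ^ 2 ∂(gQ n) := by
    intro p
    rw [Ex_eq]
    exact integral_congr_ae (ae_of_all _ fun z => col_sq hF (e p) z)
  simp only [h1]
  rw [← integral_finsetSum]
  · unfold nlin
    rw [Ex_eq]
    refine integral_congr_ae (ae_of_all _ fun z => ?_)
    have h2 := sum_mulVec_sq (FF U s z) he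
    show _ = ∑ p, ∑ i, fv U s (e p) i z ^ 2
    unfold fv
    rw [h2]
    refine Finset.sum_congr rfl fun i _ => Finset.sum_congr rfl fun j _ => ?_
    unfold FF
    simp only [A1_eq h hF, Matrix.sub_apply, Matrix.sum_apply, Matrix.smul_apply, smul_eq_mul]
  · intro p _
    refine integrable_finsetSum _ fun i _ => ?_
    obtain ⟨K, hK⟩ := fv_lip h hF (e p) i
    have := int_mul (LG.of_lipschitz hK) (LG.of_lipschitz hK)
    simpa only [← sq] using this

lemma dfK_cols (h : BP φ V a b M κ) (hF : Fr P φ U s) {e : Fin n → Fin n → ℝ} {q : Fin n → ℝ}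
    (he : ∀ p p', ∑ i, e p i * e p' i = if p = p' then 1 else 0)
    (hq : ∀ p, (KK U s).mulVec (e p) = q p • e p) :
    dfK U s = ∑ p, (q p - 1) ^ 2 := by
  have h2 := sum_mulVec_sq (KK U s - 1) he
  have h3 : ∀ p, ∑ i, ((KK U s - 1).mulVec (e p)) i ^ 2 = (q p - 1) ^ 2 := by
    intro p
    have h4 : ∀ i, ((KK U s - 1).mulVec (e p)) i = (q p - 1) * e p i := by
      intro i
      rw [Matrix.sub_mulVec, hq, Matrix.one_mulVec]
      simp only [Pi.sub_apply, Pi.smul_apply, smul_eq_mul]
      ring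
    have h5 : ∑ i, e p i ^ 2 = 1 := by
      have := he p p
      simpa only [← sq, if_true] using this
    simp only [h4, mul_pow]
    rw [← Finset.mul_sum, h5, mul_one]
  simp only [h3] at h2
  rw [h2]
  unfold dfK
  refine Finset.sum_congr rfl fun i _ => Finset.sum_congr rfl fun j _ => ?_
  simp only [A1_eq h hF, KK, Matrix.sub_apply]

lemma min_one_sum {ι : Type*} (t : Finset ι) {x : ι → ℝ} (hx : ∀ i ∈ t, 0 ≤ x i) :
    min 1 (∑ i ∈ t, x i) ≤ ∑ i ∈ t, min 1 (x i) := by
  classical
  induction t using Finset.induction_on with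
  | empty => simp
  | insert k t hk ih =>
    rw [Finset.sum_insert hk, Finset.sum_insert hk]
    have h1 := ih fun i hi => hx i (Finset.mem_insert_of_mem hi)
    have h2 := hx k (Finset.mem_insert_self _ _)
    have h3 : 0 ≤ ∑ i ∈ t, x i := Finset.sum_nonneg fun i hi => hx i (Finset.mem_insert_of_mem hi)
    have h4 : min 1 (x k + ∑ i ∈ t, x i) ≤ min 1 (x k) + min 1 (∑ i ∈ t, x i) := by
      rcases le_total 1 (x k) with h5 | h5
      · rw [min_eq_left h5]
        have := min_le_left (1 : ℝ) (x k + ∑ i ∈ t, x i)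
        have h6 : 0 ≤ min 1 (∑ i ∈ t, x i) := le_min zero_le_one h3
        linarith
      · rw [min_eq_right h5]
        rcases le_total 1 (∑ i ∈ t, x i) with h7 | h7
        · rw [min_eq_left h7]
          have := min_le_left (1 : ℝ) (x k + ∑ i ∈ t, x i)
          linarith
        · rw [min_eq_right h7]
          exact min_le_right _ _
    linarith

/-- the certificate with remainder, in columns -/
def StmtCols (P : F1) : Prop := ∀ n : ℕ, ∃ c0 : ℝ, 0 < c0 ∧
  ∀ (φ V : E n → ℝ) (c C a b M κ : ℝ), Reg V c C →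
  ∀ (U : E n → Matrix (Fin n) (Fin n) ℝ) (s : E n → Fin n → ℝ), Dat P φ V a b M κ U s →
  (∀ i j, Ex Q (fun z => GG U s z i j) = 0) →
  ∀ (e : Fin n → Fin n → ℝ) (q : Fin n → ℝ),
  (∀ p p', ∑ i, e p i * e p' i = if p = p' then 1 else 0) →
  (∀ p, (KK U s).mulVec (e p) = q p • e p) →
    2 * (n : ℝ) + Real.log (covV V).det
      + c0 * ∑ p, (Ex Q (fun z => ∑ i, col U (FF U s) (e p) z i ^ 2) + min 1 ((q p - 1) ^ 2))
      ≤ 2 * entV V

/-- orthonormal eigenbasis of a real symmetric matrix -/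
lemma exists_eigen {K : Matrix (Fin n) (Fin n) ℝ} (hK : K.IsSymm) :
    ∃ (e : Fin n → Fin n → ℝ) (q : Fin n → ℝ),
      (∀ p p', ∑ i, e p i * e p' i = if p = p' then 1 else 0) ∧
      ∀ p, K.mulVec (e p) = q p • e p := by
  have hH : K.IsHermitian := by
    rw [Matrix.IsHermitian, Matrix.conjTranspose_eq_transpose_of_trivial]
    exact hK
  refine ⟨fun p i => hH.eigenvectorBasis p i, hH.eigenvalues, fun p p' => ?_, fun p => ?_⟩
  · have h1 := orthonormal_iff_ite.1 hH.eigenvectorBasis.orthonormal p' p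
    rw [PiLp.inner_apply] at h1
    simp only [RCLike.inner_apply, conj_trivial] at h1
    rw [h1]
    by_cases h : p = p'
    · simp [h]
    · simp [h, Ne.symm h]
  · exact hH.mulVec_eigenvectorBasis p

lemma KK_symm : (KK U s).IsSymm := by
  unfold KK Matrix.IsSymm
  rw [Matrix.transpose_sum]
  refine Finset.sum_congr rfl fun c _ => ?_
  rw [Matrix.transpose_mul, (AA_symm (U := U) (s := s) c).eq]

theorem stmtStab_of (h : StmtCols P) : StmtStab P := by
  intro n
  obtain ⟨c0, hc0, hc⟩ := h n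
  refine ⟨c0, hc0, fun φ V c C a b M κ hV hB U s hF h0 => ?_⟩
  obtain ⟨e, q, he, hq⟩ := exists_eigen (KK_symm (U := U) (s := s))
  have h1 := hc φ V c C a b M κ hV U s ⟨hB, hF⟩ h0 e q he hq
  rw [nlin_cols hB hF he, dfK_cols hB hF he hq]
  rw [Finset.sum_add_distrib] at h1
  have h2 := min_one_sum Finset.univ (x := fun p => (q p - 1) ^ 2) fun p _ => sq_nonneg _
  have h3 := mul_le_mul_of_nonneg_left h2 hc0.le
  linarith [h1, h3]

end Vale.Agent.P254.SP.E72
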